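import Mathlib

/-!
P256 support file: hyperbolic polynomials, hyperbolicity cones and spectrahedral shadows.

Definitions used by the hand-in, and the lemmas behind it:
* a factor of a nonzero homogeneous real polynomial is homogeneous;
* the cone of a product is the intersection of the cones;
* spectrahedral shadows are closed under finite intersections (block-diagonal pencils);
* reduction of the shadow property to irreducible hyperbolic polynomials.
-/

namespace Vale.Agent.Lib.P256

open MvPolynomial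

/-- `p` is hyperbolic with respect to `e`: `p` is homogeneous, `p(e) > 0`, and for every real
point `x` every complex root `z` of `t ↦ p(t e - x)` is real. -/
def Hyperbolic {n : ℕ} (p : MvPolynomial (Fin n) ℝ) (e : Fin n → ℝ) : Prop :=
  (∃ d : ℕ, p.IsHomogeneous d) ∧ 0 < eval e p ∧
    ∀ (x : Fin n → ℝ) (z : ℂ), aeval (fun i => z * (e i : ℂ) - (x i : ℂ)) p = 0 → z.im = 0

/-- The closed hyperbolicity cone `K(p, e)`: all real roots `t` of `t ↦ p(t e - x)` are
nonnegative. -/
def cone {n : ℕ} (p : MvPolynomial (Fin n) ℝ) (e : Fin n → ℝ) : Set (Fin n → ℝ) :=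
  {x | ∀ t : ℝ, eval (fun i => t * e i - x i) p = 0 → 0 ≤ t}

/-- Spectrahedral shadows in `ℝ^n`: `a` lifting variables, real symmetric matrices of one finite
size `m`. -/
def IsShadow {n : ℕ} (S : Set (Fin n → ℝ)) : Prop :=
  ∃ (a m : ℕ) (A0 : Matrix (Fin m) (Fin m) ℝ) (A : Fin n → Matrix (Fin m) (Fin m) ℝ)
    (B : Fin a → Matrix (Fin m) (Fin m) ℝ),
    A0.IsSymm ∧ (∀ i, (A i).IsSymm) ∧ (∀ j, (B j).IsSymm) ∧
      S = {x | ∃ u : Fin a → ℝ, (A0 + ∑ i, x i • A i + ∑ j, u j • B j).PosSemidef}

/-- The grading homomorphism `x_i ↦ x_i * T`. -/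
noncomputable def gr (σ : Type) : MvPolynomial σ ℝ →ₐ[ℝ] Polynomial (MvPolynomial σ ℝ) :=
  MvPolynomial.aeval (fun i => Polynomial.C (MvPolynomial.X i) * Polynomial.X)

theorem gr_monomial {σ : Type} (m : σ →₀ ℕ) (c : ℝ) :
    gr σ (monomial m c) = Polynomial.monomial m.degree (monomial m c) := by
  rw [gr, aeval_monomial]
  simp only [mul_pow]
  rw [Finsupp.prod_mul]
  have h1 : (m.prod fun i k => (Polynomial.C (X i : MvPolynomial σ ℝ)) ^ k)
      = Polynomial.C (m.prod fun i k => (X i : MvPolynomial σ ℝ) ^ k) := by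
    rw [Finsupp.prod, Finsupp.prod, map_prod]
    simp
  have h2 : (m.prod fun _ k => (Polynomial.X : Polynomial (MvPolynomial σ ℝ)) ^ k)
      = Polynomial.X ^ m.degree := by
    rw [Finsupp.prod, Finsupp.degree_apply, Finset.prod_pow_eq_pow_sum]
  rw [h1, h2, monomial_eq, ← Polynomial.C_mul_X_pow_eq_monomial]
  simp [Polynomial.algebraMap_apply, mul_assoc]

theorem gr_coeff {σ : Type} (a : MvPolynomial σ ℝ) (j : ℕ) :
    (gr σ a).coeff j = homogeneousComponent j a := by
  induction a using MvPolynomial.induction_on' with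
  | monomial m c =>
    rw [gr_monomial, Polynomial.coeff_monomial]
    have hh : (monomial m c : MvPolynomial σ ℝ) ∈ homogeneousSubmodule σ ℝ m.degree :=
      isHomogeneous_monomial c rfl
    rw [homogeneousComponent_of_mem hh]
    by_cases h : m.degree = j
    · simp [h]
    · simp [h, Ne.symm h]
  | add p q hp hq => simp [hp, hq]

theorem homog_of_mul {σ : Type} (a b : MvPolynomial σ ℝ) (d : ℕ)
    (h : (a * b).IsHomogeneous d) (h0 : a * b ≠ 0) : ∃ k, a.IsHomogeneous k := by
  have ha : a ≠ 0 := left_ne_zero_of_mul h0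
  have hb : b ≠ 0 := right_ne_zero_of_mul h0
  have hga : gr σ a ≠ 0 := by
    intro hz
    apply ha
    have := sum_homogeneousComponent a
    rw [← this]
    apply Finset.sum_eq_zero
    intro i _
    rw [← gr_coeff, hz]; simp
  have hgb : gr σ b ≠ 0 := by
    intro hz
    apply hb
    have := sum_homogeneousComponent b
    rw [← this]
    apply Finset.sum_eq_zero
    intro i _
    rw [← gr_coeff, hz]; simp
  have hprod : gr σ a * gr σ b = Polynomial.monomial d (a * b) := by
    rw [← map_mul]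
    ext j
    rw [gr_coeff, Polynomial.coeff_monomial, homogeneousComponent_of_mem h]
    by_cases hj : d = j
    · simp [hj]
    · simp [hj, Ne.symm hj]
  have hdeg : (gr σ a).natDegree + (gr σ b).natDegree = d := by
    rw [← Polynomial.natDegree_mul hga hgb, hprod, Polynomial.natDegree_monomial_eq d h0]
  have htr : (gr σ a).natTrailingDegree + (gr σ b).natTrailingDegree = d := by
    rw [← Polynomial.natTrailingDegree_mul hga hgb, hprod, Polynomial.natTrailingDegree_monomial h0]
  have l1 := Polynomial.natTrailingDegree_le_natDegree (p := gr σ a)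
  have l2 := Polynomial.natTrailingDegree_le_natDegree (p := gr σ b)
  have heq : (gr σ a).natTrailingDegree = (gr σ a).natDegree := by omega
  refine ⟨(gr σ a).natDegree, ?_⟩
  have hcomp : ∀ j, j ≠ (gr σ a).natDegree → homogeneousComponent j a = 0 := by
    intro j hj
    rw [← gr_coeff]
    rcases lt_or_gt_of_ne hj with hlt | hgt
    · exact Polynomial.coeff_eq_zero_of_lt_natTrailingDegree (heq ▸ hlt)
    · exact Polynomial.coeff_eq_zero_of_natDegree_lt hgt
  have hsum := sum_homogeneousComponent a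
  have : homogeneousComponent (gr σ a).natDegree a = a := by
    conv_rhs => rw [← hsum]
    by_cases hmem : (gr σ a).natDegree ∈ Finset.range (a.totalDegree + 1)
    · rw [Finset.sum_eq_single_of_mem _ hmem (fun j _ hj => hcomp j hj)]
    · rw [Finset.sum_eq_zero (fun j hj => hcomp j (by rintro rfl; exact hmem hj))]
      apply homogeneousComponent_eq_zero
      simpa using hmem
  have hh := homogeneousComponent_isHomogeneous (gr σ a).natDegree a
  rwa [this] at hh

theorem cone_mul {n : ℕ} (p q : MvPolynomial (Fin n) ℝ) (e : Fin n → ℝ) :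
    cone (p * q) e = cone p e ∩ cone q e := by
  ext x
  simp only [cone, Set.mem_ofPred_eq, Set.mem_inter_iff, map_mul, mul_eq_zero]
  constructor
  · intro h
    exact ⟨fun t ht => h t (Or.inl ht), fun t ht => h t (Or.inr ht)⟩
  · rintro ⟨h1, h2⟩ t (ht | ht)
    exacts [h1 t ht, h2 t ht]

theorem cone_neg {n : ℕ} (p : MvPolynomial (Fin n) ℝ) (e : Fin n → ℝ) :
    cone (-p) e = cone p e := by
  ext x
  simp [cone]

theorem hyp_mul {n : ℕ} {p q : MvPolynomial (Fin n) ℝ} {e : Fin n → ℝ}
    (hp : Hyperbolic p e) (hq : Hyperbolic q e) : Hyperbolic (p * q) e := by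
  obtain ⟨⟨dp, hdp⟩, hpe, hpr⟩ := hp
  obtain ⟨⟨dq, hdq⟩, hqe, hqr⟩ := hq
  refine ⟨⟨dp + dq, hdp.mul hdq⟩, ?_, ?_⟩
  · rw [map_mul]
    exact mul_pos hpe hqe
  · intro x z hz
    rw [map_mul, mul_eq_zero] at hz
    rcases hz with h | h
    exacts [hpr x z h, hqr x z h]

theorem hyp_factor {n : ℕ} {f g : MvPolynomial (Fin n) ℝ} {e : Fin n → ℝ}
    (h : Hyperbolic (f * g) e) : Hyperbolic f e ∨ Hyperbolic (-f) e := by
  obtain ⟨⟨d, hd⟩, he, hr⟩ := h
  have h0 : f * g ≠ 0 := by
    rintro hz
    rw [hz] at he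
    simp at he
  obtain ⟨k, hk⟩ := homog_of_mul f g d hd h0
  rw [map_mul] at he
  have hroot : ∀ (x : Fin n → ℝ) (z : ℂ),
      aeval (fun i => z * (e i : ℂ) - (x i : ℂ)) f = 0 → z.im = 0 := by
    intro x z hz
    apply hr x z
    rw [map_mul, hz, zero_mul]
  rcases lt_trichotomy (eval e f) 0 with hneg | hzero | hpos
  · right
    refine ⟨⟨k, hk.neg⟩, by simpa using hneg, ?_⟩
    intro x z hz
    apply hroot x z
    simpa using hz
  · rw [hzero, zero_mul] at he
    exact absurd he (lt_irrefl 0)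
  · left
    exact ⟨⟨k, hk⟩, hpos, hroot⟩

theorem shadow_univ {n : ℕ} : IsShadow (Set.univ : Set (Fin n → ℝ)) := by
  refine ⟨0, 0, 0, fun _ => 0, fun _ => 0, by simp [Matrix.IsSymm], by simp [Matrix.IsSymm],
    by simp [Matrix.IsSymm], ?_⟩
  ext x
  simp [Matrix.PosSemidef.zero]

theorem psd_blocks {m₁ m₂ : ℕ} (M : Matrix (Fin m₁) (Fin m₁) ℝ) (N : Matrix (Fin m₂) (Fin m₂) ℝ) :
    (Matrix.fromBlocks M 0 0 N).PosSemidef ↔ M.PosSemidef ∧ N.PosSemidef := by
  constructor
  · intro h
    constructor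
    · have := h.submatrix (Sum.inl : Fin m₁ → Fin m₁ ⊕ Fin m₂)
      convert this using 1
      ext i j
      simp
    · have := h.submatrix (Sum.inr : Fin m₂ → Fin m₁ ⊕ Fin m₂)
      convert this using 1
      ext i j
      simp
  · rintro ⟨hM, hN⟩
    apply Matrix.PosSemidef.of_dotProduct_mulVec_nonneg
    · apply Matrix.IsHermitian.fromBlocks hM.1 _ hN.1
      simp
    · intro x
      have h1 := hM.dotProduct_mulVec_nonneg (x ∘ Sum.inl)
      have h2 := hN.dotProduct_mulVec_nonneg (x ∘ Sum.inr)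
      rw [Matrix.fromBlocks_mulVec]
      simp only [dotProduct, Fintype.sum_sum_type] at *
      simp only [Matrix.zero_mulVec, add_zero, zero_add, Sum.elim_inl, Sum.elim_inr] at *
      simpa using add_nonneg h1 h2

noncomputable def blk (m₁ m₂ : ℕ) :
    (Matrix (Fin m₁) (Fin m₁) ℝ × Matrix (Fin m₂) (Fin m₂) ℝ) →ₗ[ℝ]
      Matrix (Fin (m₁ + m₂)) (Fin (m₁ + m₂)) ℝ where
  toFun P := (Matrix.fromBlocks P.1 0 0 P.2).submatrix finSumFinEquiv.symm finSumFinEquiv.symm
  map_add' P Q := by
    ext i j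
    simp only [Matrix.submatrix_apply, Matrix.add_apply]
    generalize finSumFinEquiv.symm i = i'
    generalize finSumFinEquiv.symm j = j'
    rcases i' with i' | i' <;> rcases j' with j' | j' <;> simp
  map_smul' c P := by
    ext i j
    simp only [Matrix.submatrix_apply, Matrix.smul_apply, RingHom.id_apply]
    generalize finSumFinEquiv.symm i = i'
    generalize finSumFinEquiv.symm j = j'
    rcases i' with i' | i' <;> rcases j' with j' | j' <;> simp

theorem blk_psd {m₁ m₂ : ℕ} (M : Matrix (Fin m₁) (Fin m₁) ℝ) (N : Matrix (Fin m₂) (Fin m₂) ℝ) :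
    (blk m₁ m₂ (M, N)).PosSemidef ↔ M.PosSemidef ∧ N.PosSemidef := by
  rw [← psd_blocks]
  exact Matrix.posSemidef_submatrix_equiv finSumFinEquiv.symm

theorem blk_symm {m₁ m₂ : ℕ} (M : Matrix (Fin m₁) (Fin m₁) ℝ) (N : Matrix (Fin m₂) (Fin m₂) ℝ)
    (hM : M.IsSymm) (hN : N.IsSymm) : (blk m₁ m₂ (M, N)).IsSymm := by
  have : (Matrix.fromBlocks M 0 0 N).IsSymm := Matrix.IsSymm.fromBlocks hM (by simp) hN
  exact this.submatrix _

theorem shadow_inter {n : ℕ} {S T : Set (Fin n → ℝ)} (hS : IsShadow S) (hT : IsShadow T) :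
    IsShadow (S ∩ T) := by
  obtain ⟨a₁, m₁, A0, A, B, hA0, hA, hB, rfl⟩ := hS
  obtain ⟨a₂, m₂, A0', A', B', hA0', hA', hB', rfl⟩ := hT
  refine ⟨a₁ + a₂, m₁ + m₂, blk m₁ m₂ (A0, A0'), fun i => blk m₁ m₂ (A i, A' i),
    Fin.addCases (fun j => blk m₁ m₂ (B j, 0)) (fun j => blk m₁ m₂ (0, B' j)),
    blk_symm _ _ hA0 hA0', fun i => blk_symm _ _ (hA i) (hA' i), ?_, ?_⟩
  · intro j
    refine Fin.addCases (fun j => ?_) (fun j => ?_) j
    · simpa using blk_symm _ _ (hB j) (by simp [Matrix.IsSymm])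
    · simpa using blk_symm _ _ (by simp [Matrix.IsSymm]) (hB' j)
  · have key : ∀ (x : Fin n → ℝ) (u : Fin (a₁ + a₂) → ℝ),
        blk m₁ m₂ (A0, A0') + ∑ i, x i • blk m₁ m₂ (A i, A' i) +
          ∑ j, u j • (Fin.addCases (fun j => blk m₁ m₂ (B j, 0)) (fun j => blk m₁ m₂ (0, B' j)) :
            Fin (a₁ + a₂) → Matrix (Fin (m₁ + m₂)) (Fin (m₁ + m₂)) ℝ) j
        = blk m₁ m₂ (A0 + ∑ i, x i • A i + ∑ j, u (Fin.castAdd a₂ j) • B j,
            A0' + ∑ i, x i • A' i + ∑ j, u (Fin.natAdd a₁ j) • B' j) := by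
      intro x u
      rw [Fin.sum_univ_add]
      simp only [Fin.addCases_left, Fin.addCases_right]
      simp only [← map_smul, ← map_sum, ← map_add]
      congr 1
      ext : 1 <;> simp [Prod.fst_sum, Prod.snd_sum]
    ext x
    simp only [Set.mem_inter_iff, Set.mem_ofPred_eq]
    constructor
    · rintro ⟨⟨u₁, h1⟩, ⟨u₂, h2⟩⟩
      refine ⟨Fin.append u₁ u₂, ?_⟩
      rw [key, blk_psd]
      simpa using And.intro h1 h2
    · rintro ⟨u, hu⟩
      rw [key, blk_psd] at hu
      exact ⟨⟨_, hu.1⟩, ⟨_, hu.2⟩⟩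

theorem irreducible_reduction (n : ℕ)
    (H : ∀ (q : MvPolynomial (Fin n) ℝ) (e : Fin n → ℝ), Irreducible q → Hyperbolic q e →
      IsShadow (cone q e)) :
    ∀ (p : MvPolynomial (Fin n) ℝ) (e : Fin n → ℝ),
      (Hyperbolic p e ∨ Hyperbolic (-p) e) → IsShadow (cone p e) := by
  intro p
  induction p using WfDvdMonoid.induction_on_irreducible with
  | zero =>
    intro e h
    exfalso
    rcases h with h | h
    · have := h.2.1
      simp at this
    · have := h.2.1
      simp at this
  | unit u hu =>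
    intro e _
    have : cone u e = Set.univ := by
      ext x
      simp only [cone, Set.mem_ofPred_eq, Set.mem_univ, iff_true]
      intro t ht
      exfalso
      obtain ⟨v, hv⟩ := hu.exists_right_inv
      have := congrArg (eval (fun i => t * e i - x i)) hv
      rw [map_mul, ht, zero_mul, map_one] at this
      exact zero_ne_one this
    rw [this]
    exact shadow_univ
  | mul a i ha hi ih =>
    intro e h
    have h' : Hyperbolic (i * a) e ∨ Hyperbolic ((-i) * a) e := by
      rcases h with h | h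
      · exact Or.inl h
      · right
        rwa [neg_mul]
    have hi' : Hyperbolic i e ∨ Hyperbolic (-i) e := by
      rcases h' with h | h
      · exact hyp_factor h
      · have := hyp_factor h
        rwa [neg_neg, or_comm] at this
    have ha' : Hyperbolic a e ∨ Hyperbolic (-a) e := by
      rcases h' with h | h
      · rw [mul_comm] at h
        exact hyp_factor h
      · rw [mul_comm] at h
        exact hyp_factor h
    rw [cone_mul]
    apply shadow_inter
    · rcases hi' with h | h
      · exact H i e hi h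
      · have := H (-i) e ((Associated.refl i).neg_right.irreducible hi) h
        rwa [cone_neg] at this
    · exact ih e ha'

end Vale.Agent.Lib.P256
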