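import Mathlib
import Vale.Agent.Lib.P256.Shadow

/-!
P256 support file: the reduction of the shadow property to the irreducible factors of the given
polynomial (a per-polynomial form of `irreducible_reduction`), and hyperbolic polynomials of
degree one.
-/

namespace Vale.Agent.Lib.P256

open MvPolynomial

/-- Per-polynomial form of the reduction: only the irreducible factors of `p` are needed. -/
theorem factor_reduction (n : ℕ) (e : Fin n → ℝ) :
    ∀ (p : MvPolynomial (Fin n) ℝ),
      (∀ q : MvPolynomial (Fin n) ℝ, Irreducible q → q ∣ p → Hyperbolic q e →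
        IsShadow (cone q e)) →
      (Hyperbolic p e ∨ Hyperbolic (-p) e) → IsShadow (cone p e) := by
  intro p
  induction p using WfDvdMonoid.induction_on_irreducible with
  | zero =>
    intro _ h
    exfalso
    rcases h with h | h
    · have := h.2.1
      simp at this
    · have := h.2.1
      simp at this
  | unit u hu =>
    intro _ _
    have : cone u e = Set.univ := by
      ext x
      simp only [cone, Set.mem_ofPred_eq, Set.mem_univ, iff_true]
      intro t ht
      exfalso
      obtain ⟨v, hv⟩ := hu.exists_right_inv
      have := congrArg (eval (fun i => t * e i - x i)) hv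
      rw [map_mul, ht, zero_mul, map_one] at this
      exact zero_ne_one this
    rw [this]
    exact shadow_univ
  | mul a i ha hi ih =>
    intro H h
    have h' : Hyperbolic (i * a) e ∨ Hyperbolic ((-i) * a) e := by
      rcases h with h | h
      · exact Or.inl h
      · right
        rwa [neg_mul]
    have hi' : Hyperbolic i e ∨ Hyperbolic (-i) e := by
      rcases h' with h | h
      · exact hyp_factor h
      · have := hyp_factor h
        rwa [neg_neg, or_comm] at this
    have ha' : Hyperbolic a e ∨ Hyperbolic (-a) e := by
      rcases h' with h | h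
      · rw [mul_comm] at h
        exact hyp_factor h
      · rw [mul_comm] at h
        exact hyp_factor h
    rw [cone_mul]
    apply shadow_inter
    · rcases hi' with h | h
      · exact H i hi (dvd_mul_right i a) h
      · have := H (-i) ((Associated.refl i).neg_right.irreducible hi)
          (neg_dvd.mpr (dvd_mul_right i a)) h
        rwa [cone_neg] at this
    · exact ih (fun q hq hqa hqe => H q hq (dvd_mul_of_dvd_right hqa i) hqe) ha'

/-- A homogeneous polynomial of degree one is a linear form. -/
theorem eval_linear {n : ℕ} (q : MvPolynomial (Fin n) ℝ) (hq : q.IsHomogeneous 1) (t : ℝ)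
    (e x : Fin n → ℝ) :
    eval (fun i => t * e i - x i) q = t * eval e q - eval x q := by
  rw [eval_eq', eval_eq', eval_eq', Finset.mul_sum, ← Finset.sum_sub_distrib]
  apply Finset.sum_congr rfl
  intro d hd
  have hdeg := hq (mem_support_iff.mp hd)
  have h1 : (d.sum fun _ k => k) = 1 := by
    simpa [Finsupp.weight_apply] using hdeg
  obtain ⟨j, rfl⟩ := (Finsupp.sum_eq_one_iff d).mp h1
  have hprod : ∀ y : Fin n → ℝ, ∏ i, y i ^ (Finsupp.single j 1 i) = y j := by
    intro y
    rw [Finset.prod_eq_single j]
    · simp
    · intro b _ hb
      simp [Ne.symm hb]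
    · intro h
      exact absurd (Finset.mem_univ j) h
  rw [hprod, hprod, hprod]
  ring

/-- A homogeneous polynomial of degree one evaluates as the linear form of its coefficients. -/
theorem eval_deg_one {n : ℕ} (q : MvPolynomial (Fin n) ℝ) (hq : q.IsHomogeneous 1)
    (x : Fin n → ℝ) : eval x q = ∑ i, coeff (Finsupp.single i 1) q * x i := by
  rw [eval_eq']
  have hprod : ∀ j : Fin n, ∏ i, x i ^ (Finsupp.single j 1 i) = x j := by
    intro j
    rw [Finset.prod_eq_single j]
    · simp
    · intro b _ hb
      simp [Ne.symm hb]
    · intro h
      exact absurd (Finset.mem_univ j) h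
  have hsub : q.support ⊆ Finset.univ.image (fun i : Fin n => Finsupp.single i 1) := by
    intro d hd
    have hdeg := hq (mem_support_iff.mp hd)
    have h1 : (d.sum fun _ k => k) = 1 := by
      simpa [Finsupp.weight_apply] using hdeg
    obtain ⟨j, rfl⟩ := (Finsupp.sum_eq_one_iff d).mp h1
    exact Finset.mem_image.mpr ⟨j, Finset.mem_univ j, rfl⟩
  rw [Finset.sum_subset hsub (fun d _ hd => by rw [notMem_support_iff.mp hd, zero_mul])]
  rw [Finset.sum_image (fun a _ b _ h => Finsupp.single_left_injective one_ne_zero h)]
  apply Finset.sum_congr rfl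
  intro j _
  rw [hprod]

/-- The hyperbolicity cone of a hyperbolic polynomial of total degree at most one is a
spectrahedral shadow (the whole space or a closed half-space). -/
theorem shadow_of_degree_le_one {n : ℕ} {q : MvPolynomial (Fin n) ℝ} {e : Fin n → ℝ}
    (hq : Hyperbolic q e) (hdeg : q.totalDegree ≤ 1) : IsShadow (cone q e) := by
  obtain ⟨⟨d, hd⟩, hpos, -⟩ := hq
  have hq0 : q ≠ 0 := by
    rintro rfl
    simp at hpos
  have hdd : q.totalDegree = d := hd.totalDegree hq0
  rcases Nat.lt_or_ge q.totalDegree 1 with h0 | h1
  · have hC : q = C (coeff 0 q) := totalDegree_eq_zero_iff_eq_C.mp (by omega)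
    have hc : 0 < coeff 0 q := by
      have := hpos
      rw [hC, eval_C] at this
      exact this
    have : cone q e = Set.univ := by
      ext x
      simp only [cone, Set.mem_ofPred_eq, Set.mem_univ, iff_true]
      intro t ht
      exfalso
      rw [hC, eval_C] at ht
      exact (ne_of_gt hc) ht
    rw [this]
    exact shadow_univ
  · have hd1 : q.IsHomogeneous 1 := by
      have : d = 1 := by omega
      rwa [this] at hd
    have hev : ∀ y : Fin n → ℝ, eval y q = ∑ i, coeff (Finsupp.single i 1) q * y i :=
      eval_deg_one q hd1
    refine ⟨0, 1, 0, fun i => Matrix.diagonal (fun _ => coeff (Finsupp.single i 1) q),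
      fun _ => 0, by simp [Matrix.IsSymm], fun i => Matrix.isSymm_diagonal _,
      by simp [Matrix.IsSymm], ?_⟩
    have hmat : ∀ (x : Fin n → ℝ) (u : Fin 0 → ℝ),
        (0 : Matrix (Fin 1) (Fin 1) ℝ) +
            ∑ i, x i • Matrix.diagonal (fun _ : Fin 1 => coeff (Finsupp.single i 1) q) +
            ∑ j, u j • (0 : Matrix (Fin 1) (Fin 1) ℝ)
          = Matrix.diagonal (fun _ : Fin 1 => eval x q) := by
      intro x u
      rw [hev x]
      ext a b
      fin_cases a
      fin_cases b
      simp [Matrix.sum_apply, Matrix.diagonal, mul_comm]
    ext x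
    simp only [cone, Set.mem_ofPred_eq]
    constructor
    · intro h
      refine ⟨fun _ => 0, ?_⟩
      rw [hmat, Matrix.posSemidef_diagonal_iff]
      intro _
      have ht := h (eval x q / eval e q) (by
        rw [eval_linear q hd1]
        field_simp
        ring)
      have := mul_nonneg ht hpos.le
      rwa [div_mul_cancel₀ _ (ne_of_gt hpos)] at this
    · rintro ⟨u, hu⟩ t ht
      rw [hmat, Matrix.posSemidef_diagonal_iff] at hu
      have hx := hu 0
      rw [eval_linear q hd1] at ht
      by_contra hneg
      rw [not_le] at hneg
      nlinarith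

/-- A hyperbolic polynomial all of whose irreducible factors have total degree at most one has
a spectrahedral shadow as its hyperbolicity cone. -/
theorem shadow_of_linear_factors (n : ℕ) (p : MvPolynomial (Fin n) ℝ) (e : Fin n → ℝ)
    (hp : Hyperbolic p e)
    (H : ∀ q : MvPolynomial (Fin n) ℝ, Irreducible q → q ∣ p → q.totalDegree ≤ 1) :
    IsShadow (cone p e) :=
  factor_reduction n e p (fun q hq hqp hqe => shadow_of_degree_le_one hqe (H q hq hqp))
    (Or.inl hp)

end Vale.Agent.Lib.P256
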